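import Vale.Agent.P159.T1.D.H802.MainG
import Vale.Agent.P159.T1.H897.AmpC

/-!
`StmtMain`.
-/

open Filter Topology

namespace Vale.Agent.P159.T1.D.H802

open Vale.Agent.P159.H353 Vale.Agent.P159.T1.D Vale.Agent.P159.T1.H934
open Vale.Agent.P159.T1.H254 (adjS)
open Vale.Agent.P159.T1.H897 (LJ lowS amp_coarse)

section graph

variable {V E : Type} [Fintype V] [DecidableEq V] [Fintype E] {s t : E → V}

omit [Fintype E] in
lemma path_iff {xl xr : V} {h : V → ℤ} :
    Relation.ReflTransGen (adjS s t (Nh h)ᶜ) xl xr ↔ LJ s t xl xr h := by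
  have e : ∀ x y, adjS s t (Nh h)ᶜ x y ↔ lowS s t h x y := by
    intro x y
    unfold adjS lowS
    rw [Finset.mem_compl, not_not, mem_Nh, Finset.mem_compl, not_not, mem_Nh]
    rfl
  unfold LJ
  constructor
  · exact fun hp => Relation.ReflTransGen.mono (fun x y => (e x y).1) xl xr hp
  · exact fun hp => Relation.ReflTransGen.mono (fun x y => (e x y).2) xl xr hp

/-- the inequality for the event `¬ (xl ↔ xr in {h ≤ 0})` -/
lemma amp_ZA (hc : Conn s t) {J : E → ℝ} (hJ : ∀ e, 0 ≤ J e) (xl xr : V) {ρ : V → ℝ}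
    (hρ : ∀ v, 0 ≤ ρ v) :
    ZA s t J xl xr ρ (gI fun N => Relation.ReflTransGen (adjS s t Nᶜ) xl xr) *
      Zt s t J xl xr 0 0 0 ≤ Zt s t J xl xr 0 0 1 * Zt s t J xl xr ρ 1 0 := by
  classical
  refine le_trans (le_of_eq ?_) (amp_coarse hc hJ xl xr hρ)
  congr 1
  rw [ZA_eq]
  refine tsum_congr fun h => ?_
  by_cases c : h xl = 0 ∧ h xr = 0
  · rw [if_pos c]
    by_cases c2 : LJ s t xl xr h
    · rw [if_neg fun c' => c'.2 c2]
      unfold gI
      rw [if_pos (path_iff.2 c2), mul_zero]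
    · rw [if_pos ⟨c, c2⟩]
      unfold gI
      rw [if_neg fun c' => c2 (path_iff.1 c'), mul_one]
      rfl
  · rw [if_neg c, if_neg fun c' => c c'.1]

end graph

/-- the graph version -/
theorem stmtMG : StmtMG := by
  intro V E _ _ _ _ s t J xl xr ρ ι I Bad A B Q ρA ρB F hc hJ _ hρ h1 hA hB hmono hsep hcov
  exact mainG hc (fun e => (hJ e).le) hρ I Bad A B Q ρA ρB F h1 hA hB hmono hsep hcov
    (amp_ZA hc (fun e => (hJ e).le) xl xr hρ)

/-- **`StmtMain`** -/
theorem stmtMain : StmtMain := stmtMain_of stmtMG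

end Vale.Agent.P159.T1.D.H802
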