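import Vale.Agent.P159.T1.D.Defs
import Vale.Agent.P159.T1.H934.Amp

/-!
Dictionary between the heights on a finite set `U` of faces (namespace `D`) and the heights on a
finite graph (namespace `H934`): the vertices are the faces of `U` and the two halves of the outer
face.
-/

open Filter Topology

namespace Vale.Agent.P159.T1.D.H802

open Vale.Agent.P159.H353 Vale.Agent.P159.T1.D Vale.Agent.P159.T1.H934

/-- vertices: the faces of `U`, the upper outer face (`true`), the lower outer face (`false`) -/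
abbrev Vt (U : Finset Z2) : Type := {f : Z2 // f ∈ U} ⊕ Bool

/-- edges: the bonds which touch a face of `U` -/
abbrev Ed (U : Finset Z2) : Type := {e : Bnd // e ∈ bd U}

/-- the vertex of the face `f`, seen from the bond `e` -/
def vx (U : Finset Z2) (e : Bnd) (f : Z2) : Vt U :=
  if h : f ∈ U then Sum.inl ⟨f, h⟩ else Sum.inr (decide (0 ≤ e.1.2))

/-- the vertex to the right of an edge -/
def sv (U : Finset Z2) (e : Ed U) : Vt U := vx U e.1 (rt e.1)

/-- the vertex to the left of an edge -/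
def tv (U : Finset Z2) (e : Ed U) : Vt U := vx U e.1 (lf e.1)

/-- the upper outer face -/
def om (U : Finset Z2) : Vt U := Sum.inr true

/-- the lower outer face -/
def op (U : Finset Z2) : Vt U := Sum.inr false

/-- the heights on the graph: `k` at the upper, `0` at the lower outer face -/
def up (U : Finset Z2) (k : ℤ) (h : Z2 → ℤ) : Vt U → ℤ :=
  Sum.elim (fun f => h f.1) (fun b => if b then k else 0)

/-- the heights on the faces -/
def dn (U : Finset Z2) (h : Vt U → ℤ) (f : Z2) : ℤ := if hf : f ∈ U then h (Sum.inl ⟨f, hf⟩) else 0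

/-- charges on the graph -/
def cg (U : Finset Z2) (ρ : Z2 → ℝ) : Vt U → ℝ := Sum.elim (fun f => ρ f.1) (fun _ => 0)

section basic

variable {U : Finset Z2}

lemma om_ne_op : om U ≠ op U := by
  unfold om op
  simp

lemma mem_bd {e : Bnd} : e ∈ bd U ↔ lf e ∈ U ∨ rt e ∈ U := by
  unfold bd
  rw [Finset.mem_biUnion]
  constructor
  · rintro ⟨f, hf, he⟩
    simp only [sides, Finset.mem_insert, Finset.mem_singleton] at he
    rcases he with rfl | rfl | rfl | rfl
    · left; simpa [lf] using hf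
    · right
      have : rt ((f.1, f.2 + 1), false) = f := by simp [rt]
      rw [this]; exact hf
    · right; simpa [rt] using hf
    · left
      have : lf ((f.1 + 1, f.2), true) = f := by simp [lf]
      rw [this]; exact hf
  · rintro (h | h)
    · refine ⟨_, h, ?_⟩
      obtain ⟨⟨i, j⟩, b⟩ := e
      cases b <;> simp [lf, sides]
    · refine ⟨_, h, ?_⟩
      obtain ⟨⟨i, j⟩, b⟩ := e
      cases b <;> simp [rt, sides]

lemma mem_sides {e : Bnd} {f : Z2} : e ∈ sides f ↔ lf e = f ∨ rt e = f := by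
  have h := mem_bd (U := {f}) (e := e)
  unfold bd at h
  simpa using h

lemma dn_up (k : ℤ) {h : Z2 → ℤ} (hh : ∀ f, f ∉ U → h f = 0) : dn U (up U k h) = h := by
  funext f
  unfold dn up
  split_ifs with hf
  · rfl
  · exact (hh f hf).symm

lemma up_dn (h : Vt U → ℤ) (h0 : h (op U) = 0) : up U (h (om U)) (dn U h) = h := by
  funext v
  rcases v with ⟨f, hf⟩ | b
  · simp [up, dn]
  · cases b
    · simpa [up, op] using h0.symm
    · simp [up, om]

lemma dn_off (h : Vt U → ℤ) (f : Z2) (hf : f ∉ U) : dn U h f = 0 := by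
  unfold dn
  rw [dif_neg hf]

lemma up_om (k : ℤ) (h : Z2 → ℤ) : up U k h (om U) = k := by simp [up, om]

lemma up_op (k : ℤ) (h : Z2 → ℤ) : up U k h (op U) = 0 := by simp [up, op]

lemma up_inj (k : ℤ) : Function.Injective fun h : Ht U => up U k h.1 := by
  intro h h' e
  apply Subtype.ext
  have h1 := dn_up (U := U) k h.2
  have h2 := dn_up (U := U) k h'.2
  rw [← h1, ← h2]
  exact congrArg (dn U) e

/-- the gradient -/
lemma grd_up (k : ℤ) (h : Z2 → ℤ) (hh : ∀ f, f ∉ U → h f = 0) (e : Ed U) :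
    up U k h (tv U e) - up U k h (sv U e) = dh h e.1 + sec U k e.1 := by
  have he := mem_bd.1 e.2
  unfold tv sv vx dh sec
  by_cases hl : lf e.1 ∈ U <;> by_cases hr : rt e.1 ∈ U <;> by_cases hj : 0 ≤ e.1.1.2 <;>
    simp [hl, hr, hj, up, hh] <;> ring

lemma sum_ed (F : Bnd → ℝ) : ∑ e : Ed U, F e.1 = ∑ e ∈ bd U, F e :=
  Finset.sum_coe_sort (bd U) F

lemma prod_ed (F : Bnd → ℝ) : ∏ e : Ed U, F e.1 = ∏ e ∈ bd U, F e :=
  Finset.prod_coe_sort (bd U) F

/-- the weight -/
lemma W_up (b : ℝ) (k : ℤ) (h : Z2 → ℤ) (hh : ∀ f, f ∉ U → h f = 0) :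
    W (grd (sv U) (tv U)) (fun _ => b) (up U k h) = wt b U (sec U k) h := by
  unfold W wt
  rw [← prod_ed]
  refine Finset.prod_congr rfl fun e _ => ?_
  show wI b (up U k h (tv U e) - up U k h (sv U e)) = _
  rw [grd_up k h hh]

lemma sec_zero : sec U 0 = 0 := by
  funext e
  simp [sec]

lemma W_up0 (b : ℝ) (h : Z2 → ℤ) (hh : ∀ f, f ∉ U → h f = 0) :
    W (grd (sv U) (tv U)) (fun _ => b) (up U 0 h) = wt b U 0 h := by
  rw [W_up b 0 h hh, sec_zero]

/-- the charges -/
lemma lin_up (ρ : Z2 → ℝ) (k : ℤ) (h : Z2 → ℤ) :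
    ∑ v, cg U ρ v * (up U k h v : ℝ) = ch U ρ h := by
  rw [Fintype.sum_sum_type]
  simp only [cg, up, Sum.elim_inl, Sum.elim_inr, zero_mul, Finset.sum_const_zero, add_zero]
  unfold ch
  exact Finset.sum_coe_sort U fun f => ρ f * (h f : ℝ)

open Classical in
/-- change of variables -/
lemma tsum_up (k : ℤ) (F : (Vt U → ℤ) → ℝ) :
    ∑' h : Ht U, F (up U k h.1) =
      ∑' h : Vt U → ℤ, if h (om U) = k ∧ h (op U) = 0 then F h else 0 := by
  rw [← (up_inj k).tsum_eq (f := fun h : Vt U → ℤ =>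
    if h (om U) = k ∧ h (op U) = 0 then F h else 0)]
  · refine tsum_congr fun h => ?_
    rw [if_pos ⟨up_om k h.1, up_op k h.1⟩]
  · intro h hs
    rw [Function.mem_support] at hs
    by_cases hc : h (om U) = k ∧ h (op U) = 0
    · refine ⟨⟨dn U h, dn_off h⟩, ?_⟩
      show up U k (dn U h) = h
      rw [← hc.1]
      exact up_dn h hc.2
    · exact absurd (if_neg hc) hs

/-- partition functions of the sectors -/
theorem Zs_eq (b : ℝ) (k : ℤ) (ρ : Z2 → ℝ) :
    Zs b U k ρ = Zt (sv U) (tv U) (fun _ => b) (om U) (op U) (cg U ρ) k 0 := by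
  unfold Zs Zt
  rw [← tsum_up k fun h => W (grd (sv U) (tv U)) (fun _ => b) h *
    Real.exp (∑ v, cg U ρ v * (h v : ℝ))]
  refine tsum_congr fun h => ?_
  rw [lin_up, W_up b k h.1 h.2]

lemma cg_zero : cg U (0 : Z2 → ℝ) = 0 := by
  funext v
  rcases v with f | b <;> rfl

theorem Zρ_eq (b : ℝ) (ρ : Z2 → ℝ) :
    Zρ b U ρ = Zt (sv U) (tv U) (fun _ => b) (om U) (op U) (cg U ρ) 0 0 := by
  rw [← Zs_eq]
  unfold Zρ Zs
  rw [sec_zero]

lemma Zρ_zero (b : ℝ) : Zρ b U 0 = Z b U := by
  unfold Zρ Z ch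
  simp

theorem Z_eq (b : ℝ) :
    Z b U = Zt (sv U) (tv U) (fun _ => b) (om U) (op U) 0 0 0 := by
  rw [← Zρ_zero, Zρ_eq, cg_zero]

/-- reflection `h ↦ p + q - h` -/
lemma Zt_refl {V E : Type} [Fintype V] [Fintype E] (s t : E → V) (J : E → ℝ) (xl xr : V)
    (p q : ℤ) : Zt s t J xl xr 0 p q = Zt s t J xl xr 0 q p := by
  classical
  have key : ∀ F : (V → ℤ) → ℝ, ∑' h, F ((fun _ => p + q) - h) = ∑' h, F h := fun F =>
    (Equiv.subLeft (fun _ : V => p + q)).tsum_eq F
  unfold Zt
  rw [← key]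
  refine tsum_congr fun h => ?_
  have e1 : W (grd s t) J ((fun _ => p + q) - h) = W (grd s t) J h := by
    unfold W
    refine Finset.prod_congr rfl fun e _ => ?_
    show wI (J e) (p + q - h (t e) - (p + q - h (s e))) = wI (J e) (h (t e) - h (s e))
    rw [← wI_neg]
    congr 1
    ring
  rw [e1]
  simp only [Pi.zero_apply, zero_mul, Finset.sum_const_zero]
  refine if_congr ?_ rfl rfl
  show (p + q - h xl = p ∧ p + q - h xr = q) ↔ _
  constructor
  · rintro ⟨h1, h2⟩; constructor <;> omega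
  · rintro ⟨h1, h2⟩; constructor <;> omega

end basic

end Vale.Agent.P159.T1.D.H802
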