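import Vale.Agent.P159.T1.D.H802.Dict

/-!
Dictionary, second part: pinned sums, probabilities, connectedness of the slit box, paths.
-/

open Filter Topology

namespace Vale.Agent.P159.T1.D.H802

open Vale.Agent.P159.H353 Vale.Agent.P159.T1.D Vale.Agent.P159.T1.H934
open Vale.Agent.P159.T1.H254 (adjS)

section sets

variable {U : Finset Z2}

open Classical in
/-- the vertices of a set of faces -/
noncomputable def vs (U : Finset Z2) (A : Set Z2) : Finset (Vt U) :=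
  Finset.univ.filter fun v => ∃ f : {f : Z2 // f ∈ U}, v = Sum.inl f ∧ f.1 ∈ A

lemma mem_vs {A : Set Z2} {v : Vt U} :
    v ∈ vs U A ↔ ∃ f : {f : Z2 // f ∈ U}, v = Sum.inl f ∧ f.1 ∈ A := by
  classical
  unfold vs
  rw [Finset.mem_filter]
  simp only [Finset.mem_univ, true_and]

lemma inl_mem_vs {A : Set Z2} {f : {f : Z2 // f ∈ U}} :
    (Sum.inl f : Vt U) ∈ vs U A ↔ f.1 ∈ A := by
  rw [mem_vs]
  constructor
  · rintro ⟨g, hg, h⟩
    rw [Sum.inl.injEq] at hg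
    rwa [hg]
  · intro h
    exact ⟨f, rfl, h⟩

lemma om_notin_vs {A : Set Z2} : om U ∉ vs U A := by
  rw [mem_vs]
  rintro ⟨f, hf, -⟩
  unfold om at hf
  cases hf

lemma op_notin_vs {A : Set Z2} : op U ∉ vs U A := by
  rw [mem_vs]
  rintro ⟨f, hf, -⟩
  unfold op at hf
  cases hf

/-- the faces of a set of vertices; all faces off `U` belong to it -/
def fcs (U : Finset Z2) (T : Finset (Vt U)) : Set Z2 :=
  {f | ∀ hf : f ∈ U, (Sum.inl ⟨f, hf⟩ : Vt U) ∈ T}

lemma mem_fcs {T : Finset (Vt U)} {f : Z2} (hf : f ∈ U) :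
    f ∈ fcs U T ↔ (Sum.inl ⟨f, hf⟩ : Vt U) ∈ T :=
  ⟨fun h => h hf, fun h _ => h⟩

lemma fcs_mono {T T' : Finset (Vt U)} (h : T ⊆ T') : fcs U T ⊆ fcs U T' :=
  fun _ hf hU => h (hf hU)

lemma cg_add (ρ ρ' : Z2 → ℝ) : (fun v => cg U ρ v + cg U ρ' v) = cg U fun f => ρ f + ρ' f := by
  funext v
  rcases v with f | b <;> simp [cg]

lemma cg_sub (ρ ρ' : Z2 → ℝ) : (fun v => cg U ρ v - cg U ρ' v) = cg U fun f => ρ f - ρ' f := by
  funext v
  rcases v with f | b <;> simp [cg]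

lemma cg_nonneg {ρ : Z2 → ℝ} (h : ∀ f, 0 ≤ ρ f) (v : Vt U) : 0 ≤ cg U ρ v := by
  rcases v with f | b
  · exact h _
  · exact le_rfl

lemma cg_le {ρ ρ' : Z2 → ℝ} (h : ∀ f, ρ f ≤ ρ' f) (v : Vt U) : cg U ρ v ≤ cg U ρ' v := by
  rcases v with f | b
  · exact h _
  · exact le_rfl

lemma cg_off {ρ : Z2 → ℝ} {A : Set Z2} (h : ∀ f, f ∉ A → ρ f = 0) (v : Vt U)
    (hv : v ∉ vs U A) : cg U ρ v = 0 := by
  rcases v with f | b
  · exact h _ fun hf => hv (inl_mem_vs.2 hf)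
  · rfl

end sets

section pinned

variable {U : Finset Z2}

lemma bd_mono {U' : Finset Z2} (h : U' ⊆ U) : bd U' ⊆ bd U :=
  Finset.biUnion_subset_biUnion_of_subset_left _ h

/-- the weight of heights which vanish on `Q` -/
lemma wt_sdiff (b : ℝ) (Q : Finset Z2) {h : Z2 → ℤ} (hh : ∀ f, f ∉ U \ Q → h f = 0) :
    wt b U 0 h = wI b 0 ^ (bd U \ bd (U \ Q)).card * wt b (U \ Q) 0 h := by
  unfold wt
  rw [← Finset.prod_sdiff (bd_mono (U := U) (Finset.sdiff_subset (t := Q))),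
    ← Finset.prod_const]
  congr 1
  refine Finset.prod_congr rfl fun e he => ?_
  rw [Finset.mem_sdiff, mem_bd, mem_bd] at he
  have h1 : h (lf e) = 0 := hh _ fun h' => he.2 (Or.inl h')
  have h2 : h (rt e) = 0 := hh _ fun h' => he.2 (Or.inr h')
  simp [dh, h1, h2]

lemma ch_sdiff (ρ : Z2 → ℝ) (Q : Finset Z2) {h : Z2 → ℤ} (hh : ∀ f, f ∉ U \ Q → h f = 0) :
    ch U ρ h = ch (U \ Q) ρ h := by
  unfold ch
  symm
  refine Finset.sum_subset Finset.sdiff_subset fun f _ hf => ?_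
  rw [hh f hf]
  simp

open Classical in
/-- change of variables for pinned sums -/
lemma tsum_up_sdiff (Q : Finset Z2) (F : (Vt U → ℤ) → ℝ) :
    ∑' h : Ht (U \ Q), F (up U 0 h.1) =
      ∑' h : Vt U → ℤ, if (h (om U) = 0 ∧ h (op U) = 0) ∧ ∀ v ∈ vs U (Q : Set Z2), h v = 0 then
        F h else 0 := by
  have hinj : Function.Injective fun h : Ht (U \ Q) => up U 0 h.1 := by
    intro h h' e
    have h1 : ∀ g : Ht (U \ Q), ∀ f, f ∉ U → g.1 f = 0 := fun g f hf =>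
      g.2 f fun h' => hf (Finset.mem_sdiff.1 h').1
    apply Subtype.ext
    rw [← dn_up (U := U) 0 (h1 h), ← dn_up (U := U) 0 (h1 h')]
    exact congrArg (dn U) e
  rw [← hinj.tsum_eq (f := fun h : Vt U → ℤ =>
    if (h (om U) = 0 ∧ h (op U) = 0) ∧ ∀ v ∈ vs U (Q : Set Z2), h v = 0 then F h else 0)]
  · refine tsum_congr fun h => ?_
    rw [if_pos]
    refine ⟨⟨up_om 0 h.1, up_op 0 h.1⟩, fun v hv => ?_⟩
    obtain ⟨f, rfl, hf⟩ := mem_vs.1 hv
    show h.1 f.1 = 0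
    exact h.2 _ fun h' => (Finset.mem_sdiff.1 h').2 hf
  · intro h hs
    rw [Function.mem_support] at hs
    by_cases hc : (h (om U) = 0 ∧ h (op U) = 0) ∧ ∀ v ∈ vs U (Q : Set Z2), h v = 0
    · refine ⟨⟨dn U h, fun f hf => ?_⟩, ?_⟩
      · by_cases hU : f ∈ U
        · have hQ : f ∈ Q := by
            by_contra hQ
            exact hf (Finset.mem_sdiff.2 ⟨hU, hQ⟩)
          unfold dn
          rw [dif_pos hU]
          exact hc.2 _ (inl_mem_vs.2 hQ)
        · exact dn_off h f hU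
      · show up U 0 (dn U h) = h
        have h1 := up_dn h hc.1.2
        rwa [hc.1.1] at h1
    · exact absurd (if_neg hc) hs

open Classical in
/-- pinned sums are partition functions of the smaller set of faces -/
theorem ZQ_eq (b : ℝ) (Q : Finset Z2) (ρ : Z2 → ℝ) :
    (∑' h : Vt U → ℤ, if (h (om U) = 0 ∧ h (op U) = 0) ∧ ∀ v ∈ vs U (Q : Set Z2), h v = 0 then
      W (grd (sv U) (tv U)) (fun _ => b) h * Real.exp (∑ v, cg U ρ v * (h v : ℝ)) else 0) =
      wI b 0 ^ (bd U \ bd (U \ Q)).card * Zρ b (U \ Q) ρ := by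
  rw [← tsum_up_sdiff Q fun h => W (grd (sv U) (tv U)) (fun _ => b) h *
    Real.exp (∑ v, cg U ρ v * (h v : ℝ))]
  unfold Zρ
  rw [← tsum_mul_left]
  refine tsum_congr fun h => ?_
  have h1 : ∀ f, f ∉ U → h.1 f = 0 := fun f hf => h.2 f fun h' => hf (Finset.mem_sdiff.1 h').1
  rw [lin_up, W_up0 b h.1 h1, wt_sdiff b Q h.2, ch_sdiff ρ Q h.2]
  ring

open Classical in
/-- probability of `{1 ≤ h f}` -/
theorem E_eq (b : ℝ) (f : {f : Z2 // f ∈ U}) :
    (∑' h : Vt U → ℤ, if (h (om U) = 0 ∧ h (op U) = 0) ∧ 1 ≤ h (Sum.inl f) then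
      W (grd (sv U) (tv U)) (fun _ => b) h else 0) /
        Zt (sv U) (tv U) (fun _ => b) (om U) (op U) 0 0 0 =
      E b U fun h => if 1 ≤ h f.1 then 1 else 0 := by
  unfold E
  rw [← Z_eq]
  congr 1
  have h1 := tsum_up (U := U) 0 fun h => W (grd (sv U) (tv U)) (fun _ => b) h *
    (if 1 ≤ h (Sum.inl f) then 1 else 0)
  have h2 : (∑' h : Ht U, wt b U 0 h.1 * (if 1 ≤ h.1 f.1 then (1 : ℝ) else 0)) =
      ∑' h : Ht U, W (grd (sv U) (tv U)) (fun _ => b) (up U 0 h.1) *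
        (if 1 ≤ up U 0 h.1 (Sum.inl f) then 1 else 0) := by
    refine tsum_congr fun h => ?_
    rw [W_up0 b h.1 h.2]
    rfl
  rw [h2, h1]
  refine tsum_congr fun h => ?_
  by_cases c1 : h (om U) = 0 ∧ h (op U) = 0 <;> by_cases c2 : 1 ≤ h (Sum.inl f) <;>
    simp [c1, c2]

end pinned

section paths

variable {U : Finset Z2}

/-- the two faces of a bond are adjacent vertices -/
lemma adj_vx {e : Bnd} (he : e ∈ bd U) :
    adjG (sv U) (tv U) (vx U e (rt e)) (vx U e (lf e)) :=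
  ⟨⟨e, he⟩, Or.inl ⟨rfl, rfl⟩⟩

/-- both sides of an edge, as faces -/
lemma adjG_cases {u v : Vt U} (h : adjG (sv U) (tv U) u v) :
    (∃ f g : {f : Z2 // f ∈ U}, u = Sum.inl f ∧ v = Sum.inl g ∧
      ∃ e, (rt e = f.1 ∧ lf e = g.1) ∨ (rt e = g.1 ∧ lf e = f.1)) ∨
    (∃ f : {f : Z2 // f ∈ U}, u = Sum.inl f ∧ v = om U ∧ f.1 ∈ upp U) ∨
    (∃ f : {f : Z2 // f ∈ U}, u = Sum.inl f ∧ v = op U ∧ f.1 ∈ low U) ∨
    (∃ f : {f : Z2 // f ∈ U}, u = om U ∧ v = Sum.inl f ∧ f.1 ∈ upp U) ∨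
    (∃ f : {f : Z2 // f ∈ U}, u = op U ∧ v = Sum.inl f ∧ f.1 ∈ low U) := by
  obtain ⟨⟨e, he⟩, h1⟩ := h
  have he' := mem_bd.1 he
  -- one side inside, the other side outside
  have key : ∀ f g : Z2, (lf e = f ∧ rt e = g) ∨ (lf e = g ∧ rt e = f) → f ∈ U → g ∉ U →
      (vx U e g = om U ∧ f ∈ upp U) ∨ (vx U e g = op U ∧ f ∈ low U) := by
    intro f g h2 hf hg
    have h3 : e ∈ sides f := by
      rw [mem_sides]
      rcases h2 with ⟨h, -⟩ | ⟨-, h⟩
      · exact Or.inl h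
      · exact Or.inr h
    have h4 : lf e ∉ U ∨ rt e ∉ U := by
      rcases h2 with ⟨-, h⟩ | ⟨h, -⟩
      · right; rwa [h]
      · left; rwa [h]
    by_cases hj : 0 ≤ e.1.2
    · left
      refine ⟨?_, e, h3, hj, h4⟩
      unfold vx om
      rw [dif_neg hg]
      simp [hj]
    · right
      refine ⟨?_, e, h3, not_le.1 hj, h4⟩
      unfold vx op
      rw [dif_neg hg]
      simp [hj]
  have hin : ∀ f (hf : f ∈ U), vx U e f = Sum.inl ⟨f, hf⟩ := fun f hf => by
    unfold vx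
    rw [dif_pos hf]
  have hs : sv U ⟨e, he⟩ = vx U e (rt e) := rfl
  have ht : tv U ⟨e, he⟩ = vx U e (lf e) := rfl
  rw [hs, ht] at h1
  by_cases hl : lf e ∈ U <;> by_cases hr : rt e ∈ U
  · rw [hin _ hl, hin _ hr] at h1
    rcases h1 with ⟨rfl, rfl⟩ | ⟨rfl, rfl⟩
    · exact Or.inl ⟨_, _, rfl, rfl, e, Or.inl ⟨rfl, rfl⟩⟩
    · exact Or.inl ⟨_, _, rfl, rfl, e, Or.inr ⟨rfl, rfl⟩⟩
  · rw [hin _ hl] at h1
    rcases key (lf e) (rt e) (Or.inl ⟨rfl, rfl⟩) hl hr with ⟨h2, h3⟩ | ⟨h2, h3⟩ <;>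
      rw [h2] at h1 <;> rcases h1 with ⟨rfl, rfl⟩ | ⟨rfl, rfl⟩
    · exact Or.inr (Or.inr (Or.inr (Or.inl ⟨_, rfl, rfl, h3⟩)))
    · exact Or.inr (Or.inl ⟨_, rfl, rfl, h3⟩)
    · exact Or.inr (Or.inr (Or.inr (Or.inr ⟨_, rfl, rfl, h3⟩)))
    · exact Or.inr (Or.inr (Or.inl ⟨_, rfl, rfl, h3⟩))
  · rw [hin _ hr] at h1
    rcases key (rt e) (lf e) (Or.inr ⟨rfl, rfl⟩) hr hl with ⟨h2, h3⟩ | ⟨h2, h3⟩ <;>
      rw [h2] at h1 <;> rcases h1 with ⟨rfl, rfl⟩ | ⟨rfl, rfl⟩
    · exact Or.inr (Or.inl ⟨_, rfl, rfl, h3⟩)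
    · exact Or.inr (Or.inr (Or.inr (Or.inl ⟨_, rfl, rfl, h3⟩)))
    · exact Or.inr (Or.inr (Or.inl ⟨_, rfl, rfl, h3⟩))
    · exact Or.inr (Or.inr (Or.inr (Or.inr ⟨_, rfl, rfl, h3⟩)))
  · exact absurd he' (by tauto)

/-- a path from the upper to the lower outer face inside `T` contains a path of faces -/
theorem Jn_of_path {T : Finset (Vt U)}
    (h : Relation.ReflTransGen (adjS (sv U) (tv U) Tᶜ) (om U) (op U)) :
    Jn U (fcs U T) (upp U) (low U) := by
  have key : ∀ v, Relation.ReflTransGen (adjS (sv U) (tv U) Tᶜ) (om U) v →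
      v = om U ∨ Jn U (fcs U T) (upp U) (low U) ∨
        ∃ f : {f : Z2 // f ∈ U}, v = Sum.inl f ∧ ∃ a ∈ upp U, (a ∈ U ∧ a ∈ fcs U T) ∧
          Relation.ReflTransGen (adj U (fcs U T)) a f.1 := by
    intro v hv
    induction hv with
    | refl => exact Or.inl rfl
    | @tail b c _ hbc ih =>
      obtain ⟨hb, hc, he⟩ := hbc
      rw [Finset.mem_compl, not_not] at hb hc
      have hadj : adjG (sv U) (tv U) b c := he
      rcases ih with rfl | h1 | ⟨f, rfl, a, ha, ha', hp⟩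
      · rcases adjG_cases hadj with ⟨f, g, h2, -⟩ | ⟨f, h2, -⟩ | ⟨f, h2, -⟩ | ⟨f, -, rfl, h3⟩ |
          ⟨f, h2, -⟩
        · unfold om at h2; cases h2
        · unfold om at h2; cases h2
        · unfold om at h2; cases h2
        · exact Or.inr (Or.inr ⟨f, rfl, f.1, h3, ⟨f.2, (mem_fcs f.2).2 hc⟩,
            Relation.ReflTransGen.refl⟩)
        · exact absurd h2 om_ne_op
      · exact Or.inr (Or.inl h1)
      · rcases adjG_cases hadj with ⟨f', g, h2, rfl, e, h3⟩ | ⟨f', -, rfl, -⟩ |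
          ⟨f', h2, rfl, h3⟩ | ⟨f', h2, -⟩ | ⟨f', h2, -⟩
        · rw [Sum.inl.injEq] at h2
          subst h2
          refine Or.inr (Or.inr ⟨g, rfl, a, ha, ha', hp.tail ?_⟩)
          exact ⟨⟨f.2, (mem_fcs f.2).2 hb⟩, ⟨g.2, (mem_fcs g.2).2 hc⟩, e, h3⟩
        · exact Or.inl rfl
        · rw [Sum.inl.injEq] at h2
          subst h2
          exact Or.inr (Or.inl ⟨a, ha, f.1, h3, ha', hp⟩)
        · unfold om at h2; cases h2
        · unfold op at h2; cases h2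
  rcases key _ h with h1 | h1 | ⟨f, h1, -⟩
  · exact absurd h1.symm om_ne_op
  · exact h1
  · unfold op at h1; cases h1

/-- a path of the graph off `T ∪ Q` is a path of faces if both outer faces are in `T` -/
theorem Jn_of_sep {T : Finset (Vt U)} (h0 : om U ∈ T) (h1 : op U ∈ T) (Q : Finset Z2)
    {A B : Set Z2} {x y : Vt U} (hx : x ∈ vs U A) (hy : y ∈ vs U B)
    (hxT : x ∉ T ∪ vs U (Q : Set Z2))
    (h : Relation.ReflTransGen (adjS (sv U) (tv U) (T ∪ vs U (Q : Set Z2))) x y) :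
    Jn U (fcs U T ∪ (Q : Set Z2))ᶜ A B := by
  obtain ⟨f, rfl, hf⟩ := mem_vs.1 hx
  have off : ∀ g : {f : Z2 // f ∈ U}, (Sum.inl g : Vt U) ∉ T ∪ vs U (Q : Set Z2) →
      g.1 ∈ U ∧ g.1 ∈ (fcs U T ∪ (Q : Set Z2))ᶜ := by
    intro g hg
    rw [Finset.mem_union, not_or] at hg
    refine ⟨g.2, ?_⟩
    rintro (h2 | h2)
    · exact hg.1 ((mem_fcs g.2).1 h2)
    · exact hg.2 (inl_mem_vs.2 h2)
  have key : ∃ g : {f : Z2 // f ∈ U}, y = Sum.inl g ∧
      Relation.ReflTransGen (adj U (fcs U T ∪ (Q : Set Z2))ᶜ) f.1 g.1 := by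
    clear hy
    induction h with
    | refl => exact ⟨f, rfl, Relation.ReflTransGen.refl⟩
    | @tail b c _ hbc ih =>
      obtain ⟨g, rfl, hg⟩ := ih
      obtain ⟨hb, hc, he⟩ := hbc
      have hadj : adjG (sv U) (tv U) (Sum.inl g) c := he
      rcases adjG_cases hadj with ⟨f', g', h2, rfl, e, h3⟩ | ⟨f', -, rfl, -⟩ |
          ⟨f', -, rfl, -⟩ | ⟨f', h2, -⟩ | ⟨f', h2, -⟩
      · rw [Sum.inl.injEq] at h2
        subst h2
        exact ⟨g', rfl, hg.tail ⟨off g hb, off g' hc, e, h3⟩⟩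
      · exact absurd (Finset.mem_union_left _ h0) hc
      · exact absurd (Finset.mem_union_left _ h1) hc
      · unfold om at h2; cases h2
      · unfold op at h2; cases h2
  obtain ⟨g, rfl, hg⟩ := key
  exact ⟨f.1, hf, g.1, inl_mem_vs.1 hy, off f hxT, hg⟩

end paths

section conn

lemma mem_SB {R r : ℕ} {f : Z2} : f ∈ SB R r ↔
    ((-(R : ℤ) ≤ f.1 ∧ f.1 < r + R) ∧ (-(R : ℤ) ≤ f.2 ∧ f.2 < R)) ∧
      ¬ (f.2 = -1 ∧ (f.1 < 0 ∨ (r : ℤ) ≤ f.1)) := by
  unfold SB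
  rw [Finset.mem_filter, Finset.mem_product, Finset.mem_Ico, Finset.mem_Ico]

lemma adjG_symm {V E : Type} {s t : E → V} {a b : V} (h : adjG s t a b) : adjG s t b a := by
  obtain ⟨e, he⟩ := h
  exact ⟨e, he.symm⟩

lemma rtg_symm {V E : Type} {s t : E → V} {a b : V}
    (h : Relation.ReflTransGen (adjG s t) a b) : Relation.ReflTransGen (adjG s t) b a := by
  induction h with
  | refl => exact Relation.ReflTransGen.refl
  | tail _ h1 ih => exact Relation.ReflTransGen.head (adjG_symm h1) ih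

/-- one step upwards -/
lemma step_up {U : Finset Z2} {i j : ℤ} (h : (i, j) ∈ U) :
    adjG (sv U) (tv U) (Sum.inl ⟨(i, j), h⟩) (vx U ((i, j + 1), false) (i, j + 1)) := by
  have he : (((i, j + 1), false) : Bnd) ∈ bd U := by
    rw [mem_bd]
    right
    have : rt ((i, j + 1), false) = (i, j) := by simp [rt]
    rwa [this]
  have h1 := adj_vx he
  have e1 : rt ((i, j + 1), false) = (i, j) := by simp [rt]
  have e2 : lf ((i, j + 1), false) = (i, j + 1) := by simp [lf]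
  rw [e1, e2] at h1
  have e3 : vx U ((i, j + 1), false) (i, j) = Sum.inl ⟨(i, j), h⟩ := by
    unfold vx
    rw [dif_pos h]
  rwa [e3] at h1

/-- one step downwards -/
lemma step_dn {U : Finset Z2} {i j : ℤ} (h : (i, j) ∈ U) :
    adjG (sv U) (tv U) (Sum.inl ⟨(i, j), h⟩) (vx U ((i, j), false) (i, j - 1)) := by
  have he : (((i, j), false) : Bnd) ∈ bd U := by
    rw [mem_bd]
    left
    have : lf ((i, j), false) = (i, j) := by simp [lf]
    rwa [this]
  have h1 := adj_vx he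
  have e1 : rt ((i, j), false) = (i, j - 1) := by simp [rt]
  have e2 : lf ((i, j), false) = (i, j) := by simp [lf]
  rw [e1, e2] at h1
  have e3 : vx U ((i, j), false) (i, j) = Sum.inl ⟨(i, j), h⟩ := by
    unfold vx
    rw [dif_pos h]
  rw [e3] at h1
  exact adjG_symm h1

variable {R r : ℕ}

lemma to_om (n : ℕ) : ∀ (i j : ℤ) (h : (i, j) ∈ SB R r), 0 ≤ j → j = (R : ℤ) - 1 - n →
    Relation.ReflTransGen (adjG (sv (SB R r)) (tv (SB R r))) (Sum.inl ⟨(i, j), h⟩)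
      (om (SB R r)) := by
  induction n with
  | zero =>
    intro i j h h0 hj
    have h1 := step_up h
    have h2 : (i, j + 1) ∉ SB R r := by
      rw [mem_SB]
      simp only
      push_cast at hj
      omega
    have h3 : vx (SB R r) ((i, j + 1), false) (i, j + 1) = om (SB R r) := by
      unfold vx om
      rw [dif_neg h2]
      have : (0 : ℤ) ≤ j + 1 := by omega
      simp [this]
    rw [h3] at h1
    exact Relation.ReflTransGen.single h1
  | succ n ih =>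
    intro i j h h0 hj
    have h1 := step_up h
    have h2 : (i, j + 1) ∈ SB R r := by
      rw [mem_SB] at h ⊢
      simp only at h ⊢
      push_cast at hj
      omega
    have h3 : vx (SB R r) ((i, j + 1), false) (i, j + 1) = Sum.inl ⟨(i, j + 1), h2⟩ := by
      unfold vx
      rw [dif_pos h2]
    rw [h3] at h1
    refine Relation.ReflTransGen.head h1 (ih i (j + 1) h2 (by omega) ?_)
    push_cast at hj
    omega

lemma to_op (n : ℕ) : ∀ (i j : ℤ) (h : (i, j) ∈ SB R r), j < 0 → j = -(R : ℤ) + n →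
    Relation.ReflTransGen (adjG (sv (SB R r)) (tv (SB R r))) (Sum.inl ⟨(i, j), h⟩)
      (op (SB R r)) := by
  induction n with
  | zero =>
    intro i j h h0 hj
    have h1 := step_dn h
    have h2 : (i, j - 1) ∉ SB R r := by
      rw [mem_SB]
      simp only
      push_cast at hj
      omega
    have h3 : vx (SB R r) ((i, j), false) (i, j - 1) = op (SB R r) := by
      unfold vx op
      rw [dif_neg h2]
      have : ¬ (0 : ℤ) ≤ j := by omega
      simp [this]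
    rw [h3] at h1
    exact Relation.ReflTransGen.single h1
  | succ n ih =>
    intro i j h h0 hj
    have h1 := step_dn h
    have h2 : (i, j - 1) ∈ SB R r := by
      rw [mem_SB] at h ⊢
      simp only at h ⊢
      push_cast at hj
      omega
    have h3 : vx (SB R r) ((i, j), false) (i, j - 1) = Sum.inl ⟨(i, j - 1), h2⟩ := by
      unfold vx
      rw [dif_pos h2]
    rw [h3] at h1
    refine Relation.ReflTransGen.head h1 (ih i (j - 1) h2 (by omega) ?_)
    push_cast at hj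
    omega

/-- the graph of the slit box is connected -/
theorem conn_SB (hR : 1 ≤ R) (hr : 1 ≤ r) : Conn (sv (SB R r)) (tv (SB R r)) := by
  have up1 : ∀ (i j : ℤ) (h : (i, j) ∈ SB R r), 0 ≤ j →
      Relation.ReflTransGen (adjG (sv (SB R r)) (tv (SB R r))) (Sum.inl ⟨(i, j), h⟩)
        (om (SB R r)) := by
    intro i j h h0
    refine to_om ((R : ℤ) - 1 - j).toNat i j h h0 ?_
    rw [mem_SB] at h
    simp only at h
    omega
  have dn1 : ∀ (i j : ℤ) (h : (i, j) ∈ SB R r), j < 0 →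
      Relation.ReflTransGen (adjG (sv (SB R r)) (tv (SB R r))) (Sum.inl ⟨(i, j), h⟩)
        (op (SB R r)) := by
    intro i j h h0
    refine to_op (j + (R : ℤ)).toNat i j h h0 ?_
    rw [mem_SB] at h
    simp only at h
    omega
  have m0 : ((0, 0) : Z2) ∈ SB R r := by rw [mem_SB]; simp only; omega
  have m1 : ((0, 0 - 1) : Z2) ∈ SB R r := by rw [mem_SB]; simp only; omega
  have h01 : Relation.ReflTransGen (adjG (sv (SB R r)) (tv (SB R r))) (om (SB R r))
      (op (SB R r)) := by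
    have h1 := step_dn m0
    have h3 : vx (SB R r) ((0, 0), false) (0, 0 - 1) = Sum.inl ⟨(0, 0 - 1), m1⟩ := by
      unfold vx
      rw [dif_pos m1]
    rw [h3] at h1
    exact (rtg_symm (up1 0 0 m0 le_rfl)).trans
      (Relation.ReflTransGen.head h1 (dn1 0 (0 - 1) m1 (by norm_num)))
  have all : ∀ v, Relation.ReflTransGen (adjG (sv (SB R r)) (tv (SB R r))) v (om (SB R r)) := by
    intro v
    rcases v with ⟨⟨i, j⟩, h⟩ | b
    · by_cases h0 : 0 ≤ j
      · exact up1 i j h h0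
      · exact (dn1 i j h (not_le.1 h0)).trans (rtg_symm h01)
    · cases b
      · exact rtg_symm h01
      · exact Relation.ReflTransGen.refl
  intro u v
  exact (all u).trans (rtg_symm (all v))

end conn

end Vale.Agent.P159.T1.D.H802
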