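import Vale.Agent.P159.T1.D.H802.Dict2
import Vale.Agent.P159.T1.D.Stmts

/-!
`StmtMain` from its version on finite graphs.
-/

open Filter Topology

namespace Vale.Agent.P159.T1.D.H802

open Vale.Agent.P159.H353 Vale.Agent.P159.T1.D Vale.Agent.P159.T1.H934
open Vale.Agent.P159.T1.H254 (adjS)

open Classical in
/-- pinned sum on a graph -/
noncomputable def ZQ {V E : Type} [Fintype V] [Fintype E] (s t : E → V) (J : E → ℝ) (xl xr : V)
    (Q : Finset V) (σ : V → ℝ) : ℝ :=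
  ∑' h : V → ℤ, if (h xl = 0 ∧ h xr = 0) ∧ ∀ v ∈ Q, h v = 0 then
    W (grd s t) J h * Real.exp (∑ v, σ v * (h v : ℝ)) else 0

open Classical in
/-- the sum over the heights with `1 ≤ h f` -/
noncomputable def Z1 {V E : Type} [Fintype E] (s t : E → V) (J : E → ℝ) (xl xr : V)
    (f : V) : ℝ :=
  ∑' h : V → ℤ, if (h xl = 0 ∧ h xr = 0) ∧ 1 ≤ h f then W (grd s t) J h else 0

/-- `StmtMain` on a finite graph -/
def StmtMG : Prop :=
  ∀ (V E : Type) [Fintype V] [DecidableEq V] [Fintype E] [DecidableEq E] (s t : E → V)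
    (J : E → ℝ) (xl xr : V) (ρ : V → ℝ) (ι : Type) (I : Finset ι) (Bad : ι → Finset V → Prop)
    (A B Q : ι → Finset V) (ρA ρB : ι → V → ℝ) (F : Finset V),
    Conn s t → (∀ e, 0 < J e) → xl ≠ xr → (∀ v, 0 ≤ ρ v) →
    (∀ i ∈ I, ∀ v, 0 ≤ ρA i v ∧ 0 ≤ ρB i v ∧ ρA i v + ρB i v ≤ ρ v) →
    (∀ i ∈ I, ∀ v, v ∉ A i → ρA i v = 0) → (∀ i ∈ I, ∀ v, v ∉ B i → ρB i v = 0) →
    (∀ i ∈ I, ∀ N N' : Finset V, N ⊆ N' → Bad i N → Bad i N') →
    (∀ i ∈ I, ∀ N : Finset V, xl ∈ N → xr ∈ N → Bad i N → ∀ x ∈ A i, ∀ y ∈ B i,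
      x ∉ N ∪ Q i → ¬ Relation.ReflTransGen (adjS s t (N ∪ Q i)) x y) →
    (∀ N : Finset V, xl ∈ N → xr ∈ N → Relation.ReflTransGen (adjS s t Nᶜ) xl xr →
      (∃ i ∈ I, Bad i N) ∨ ∃ f ∈ F, f ∈ N) →
    Zt s t J xl xr 0 0 0 * Zt s t J xl xr ρ 0 0 *
        (∏ i ∈ I, max 0 (1 - ZQ s t J xl xr (Q i) (fun v => ρA i v - ρB i v) /
          ZQ s t J xl xr (Q i) (fun v => ρA i v + ρB i v))) *
        (∏ f ∈ F, Z1 s t J xl xr f / Zt s t J xl xr 0 0 0) ≤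
      Zt s t J xl xr 0 0 1 * Zt s t J xl xr ρ 1 0

lemma ZQ_Zρ {U : Finset Z2} (b : ℝ) (Q : Finset Z2) (ρ : Z2 → ℝ) :
    ZQ (sv U) (tv U) (fun _ => b) (om U) (op U) (vs U (Q : Set Z2)) (cg U ρ) =
      wI b 0 ^ (bd U \ bd (U \ Q)).card * Zρ b (U \ Q) ρ := by
  rw [← ZQ_eq]
  unfold ZQ
  refine tsum_congr fun h => ?_
  by_cases c : (h (om U) = 0 ∧ h (op U) = 0) ∧ ∀ v ∈ vs U (Q : Set Z2), h v = 0
  · rw [if_pos c, if_pos c]
  · rw [if_neg c, if_neg c]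

/-- the ratio of pinned sums -/
lemma ratio_eq {U : Finset Z2} {b : ℝ} (hb : 0 ≤ b) (Q : Finset Z2) (ρ ρ' : Z2 → ℝ) :
    ZQ (sv U) (tv U) (fun _ => b) (om U) (op U) (vs U (Q : Set Z2)) (cg U ρ) /
      ZQ (sv U) (tv U) (fun _ => b) (om U) (op U) (vs U (Q : Set Z2)) (cg U ρ') =
      Zρ b (U \ Q) ρ / Zρ b (U \ Q) ρ' := by
  rw [ZQ_Zρ, ZQ_Zρ]
  exact mul_div_mul_left _ _ (pow_pos (wI_zero_pos hb) _).ne'

lemma prod_vs {U F : Finset Z2} (hF : F ⊆ U) {g : Vt U → ℝ} {g' : Z2 → ℝ}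
    (h : ∀ f (hf : f ∈ U), g (Sum.inl ⟨f, hf⟩) = g' f) :
    ∏ v ∈ vs U (F : Set Z2), g v = ∏ f ∈ F, g' f := by
  symm
  refine Finset.prod_nbij (fun f => if hf : f ∈ U then (Sum.inl ⟨f, hf⟩ : Vt U) else om U)
    ?_ ?_ ?_ ?_
  · intro f hf
    rw [dif_pos (hF hf), inl_mem_vs]
    exact hf
  · intro f hf f' hf' e
    simp only at e
    rw [dif_pos (hF hf), dif_pos (hF hf'), Sum.inl.injEq, Subtype.mk.injEq] at e
    exact e
  · intro v hv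
    obtain ⟨f, rfl, hf⟩ := mem_vs.1 hv
    refine ⟨f.1, hf, ?_⟩
    simp only
    rw [dif_pos f.2]
  · intro f hf
    rw [dif_pos (hF hf), h]

/-- **`StmtMain` from the graph version** -/
theorem stmtMain_of (hG : StmtMG) : StmtMain := by
  intro b R r ρ ι I Bad A B Q ρA ρB F hb hR hr hρ hF h1 hA hB hmono hsep hcov
  have hb0 : 0 ≤ b := hb.le
  have key := hG (Vt (SB R r)) (Ed (SB R r)) (sv (SB R r)) (tv (SB R r)) (fun _ => b)
    (om (SB R r)) (op (SB R r)) (cg (SB R r) ρ) ι I (fun i T => Bad i (fcs (SB R r) T))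
    (fun i => vs (SB R r) (A i)) (fun i => vs (SB R r) (B i))
    (fun i => vs (SB R r) (Q i : Set Z2)) (fun i => cg (SB R r) (ρA i))
    (fun i => cg (SB R r) (ρB i)) (vs (SB R r) (F : Set Z2))
    (conn_SB (by omega) hr) (fun _ => hb) om_ne_op (cg_nonneg hρ)
    (fun i hi v => ⟨cg_nonneg (fun f => (h1 i hi f).1) v, cg_nonneg (fun f => (h1 i hi f).2.1) v,
      by
        have h2 := cg_le (U := SB R r) (fun f => (h1 i hi f).2.2) v
        rw [← cg_add] at h2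
        exact h2⟩)
    (fun i hi v hv => cg_off (hA i hi) v hv) (fun i hi v hv => cg_off (hB i hi) v hv)
    (fun i hi N N' hN h => hmono i hi _ _ (fcs_mono hN) h)
    (fun i hi N h0 h0' hbad x hx y hy hxN hp =>
      hsep i hi _ hbad (Jn_of_sep h0 h0' (Q i) hx hy hxN hp))
    (fun N _ _ hp => by
      rcases hcov _ (Jn_of_path hp) with h | ⟨f, hf, hfN⟩
      · exact Or.inl h
      · exact Or.inr ⟨Sum.inl ⟨f, hF hf⟩, inl_mem_vs.2 hf, (mem_fcs (hF hf)).1 hfN⟩)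
  rw [Zt_refl (sv (SB R r)) (tv (SB R r)) (fun _ => b) (om (SB R r)) (op (SB R r)) 0 1,
    ← Z_eq, ← Zρ_eq, ← Zs_eq] at key
  have e1 : Zt (sv (SB R r)) (tv (SB R r)) (fun _ => b) (om (SB R r)) (op (SB R r)) 0 1 0 =
      Zs b (SB R r) 1 0 := by
    rw [Zs_eq, cg_zero]
  rw [e1] at key
  refine le_trans (le_of_eq ?_) key
  congr 1
  · congr 1
    refine Finset.prod_congr rfl fun i _ => ?_
    rw [cg_add, cg_sub, ratio_eq hb0]
  · symm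
    refine prod_vs hF fun f hf => ?_
    rw [Z_eq]
    exact E_eq b ⟨f, hf⟩

end Vale.Agent.P159.T1.D.H802
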