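import Vale.Agent.P159.T1.D.H802.Main
import Vale.Agent.P159.T1.H619.ArmW
import Vale.Agent.P159.T1.H897.Fkg2

/-!
The product inequality on a finite graph: FKG, the arm bound, and the inequality for the event
that the cluster of `{h ≤ 0}` of one lip misses the other lip.
-/

open Filter Topology

namespace Vale.Agent.P159.T1.D.H802

open Vale.Agent.P159.H353 Vale.Agent.P159.T1.D Vale.Agent.P159.T1.H934
open Vale.Agent.P159.T1.H254 (adjS)
open Vale.Agent.P159.T1.H897 (Wk ex Hol SetLe pin holley_on fkg_prod_on hol_Wex logC_wI tsum_on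
  Wk_nonneg ex_pos)

section graph

variable {V E : Type} [Fintype V] [DecidableEq V] [Fintype E] {s t : E → V}

/-- the heights which vanish at the two lips -/
def A0 (xl xr : V) : Set (V → ℤ) := {h | h xl = 0 ∧ h xr = 0}

/-- the set of vertices with heights `≤ 0` -/
def Nh (h : V → ℤ) : Finset V := Finset.univ.filter fun v => h v ≤ 0

omit [DecidableEq V] in
lemma mem_Nh {h : V → ℤ} {v : V} : v ∈ Nh h ↔ h v ≤ 0 := by
  unfold Nh
  simp

omit [DecidableEq V] in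
lemma Nh_anti {h h' : V → ℤ} (hh : h ≤ h') : Nh h' ⊆ Nh h := by
  intro v hv
  rw [mem_Nh] at hv ⊢
  exact (hh v).trans hv

/-- the tilted weight -/
noncomputable def wm (s t : E → V) (J : E → ℝ) (ρ : V → ℝ) (h : V → ℤ) : ℝ :=
  W (grd s t) J h * Real.exp (∑ v, ρ v * (h v : ℝ))

omit [DecidableEq V] in
lemma wm_eq (J : E → ℝ) (ρ : V → ℝ) :
    wm s t J ρ = fun h => Wk s t (fun e => wI (J e)) h * ex ρ h := rfl

omit [DecidableEq V] in
lemma wm_nonneg {J : E → ℝ} (hJ : ∀ e, 0 ≤ J e) (ρ : V → ℝ) (h : V → ℤ) :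
    0 ≤ wm s t J ρ h := mul_nonneg (W_nonneg hJ h) (Real.exp_pos _).le

omit [DecidableEq V] in
lemma hol_wm {J : E → ℝ} (hJ : ∀ e, 0 ≤ J e) {ρ ρ' : V → ℝ} (hρ : ∀ v, ρ v ≤ ρ' v) :
    Hol (wm s t J ρ) (wm s t J ρ') := by
  rw [wm_eq, wm_eq]
  exact hol_Wex (fun e n => wI_nonneg (hJ e) n) (fun e => logC_wI (hJ e)) hρ

omit [Fintype V] [DecidableEq V] in
lemma setLe_A0 (xl xr : V) : SetLe (A0 xl xr) (A0 xl xr) := by
  rintro x ⟨hx1, hx2⟩ y ⟨hy1, hy2⟩
  refine ⟨⟨?_, ?_⟩, ⟨?_, ?_⟩⟩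
  · rw [Pi.inf_apply, hx1, hy1]; simp
  · rw [Pi.inf_apply, hx2, hy2]; simp
  · rw [Pi.sup_apply, hx1, hy1]; simp
  · rw [Pi.sup_apply, hx2, hy2]; simp

open Classical in
omit [Fintype V] [DecidableEq V] in
/-- sums over `A0` -/
lemma tsum_A0 (xl xr : V) (F : (V → ℤ) → ℝ) :
    ∑' h : A0 xl xr, F h = ∑' h : V → ℤ, if h xl = 0 ∧ h xr = 0 then F h else 0 := by
  rw [tsum_on]
  refine tsum_congr fun h => ?_
  by_cases c : h xl = 0 ∧ h xr = 0
  · have : h ∈ A0 xl xr := c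
    rw [Set.indicator_of_mem this, if_pos c, one_mul]
  · have : h ∉ A0 xl xr := c
    rw [Set.indicator_of_notMem this, if_neg c, zero_mul]

lemma summable_if (hc : Conn s t) {J : E → ℝ} (hJ : ∀ e, 0 ≤ J e) (xl xr : V) (ρ : V → ℝ) :
    Summable fun h : V → ℤ => if ∀ v ∈ ({xl, xr} : Finset V), h v = 0 then wm s t J ρ h else 0 := by
  classical
  exact H619.summable_tilt (s := s) (t := t) (P := {xl, xr})
    (fun v => ⟨xl, by simp, Relation.ReflTransGen.mono (fun x y hxy => by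
      obtain ⟨e, he⟩ := hxy
      exact ⟨by simp, by simp, e, he⟩) xl v (hc xl v)⟩) hJ ρ

lemma summable_A0 (hc : Conn s t) {J : E → ℝ} (hJ : ∀ e, 0 ≤ J e) (xl xr : V) (ρ : V → ℝ) :
    Summable fun h : A0 xl xr => wm s t J ρ h := by
  have h1 := (summable_if hc hJ xl xr ρ).comp_injective
    (i := fun h : A0 xl xr => h.1) Subtype.coe_injective
  refine h1.congr fun h => ?_
  show (if ∀ v ∈ ({xl, xr} : Finset V), h.1 v = 0 then wm s t J ρ h.1 else 0) = _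
  rw [if_pos]
  intro v hv
  rw [Finset.mem_insert, Finset.mem_singleton] at hv
  rcases hv with rfl | rfl
  · exact h.2.1
  · exact h.2.2

lemma summable_A0_mul (hc : Conn s t) {J : E → ℝ} (hJ : ∀ e, 0 ≤ J e) (xl xr : V) (ρ : V → ℝ)
    {f : (V → ℤ) → ℝ} (f0 : ∀ h, 0 ≤ f h) (f1 : ∀ h, f h ≤ 1) :
    Summable fun h : A0 xl xr => wm s t J ρ h * f h :=
  Summable.of_nonneg_of_le (fun h => mul_nonneg (wm_nonneg hJ ρ h) (f0 _))
    (fun h => mul_le_of_le_one_right (wm_nonneg hJ ρ h) (f1 _)) (summable_A0 hc hJ xl xr ρ)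

/-- the sum over the heights which vanish at the lips -/
noncomputable def ZA (s t : E → V) (J : E → ℝ) (xl xr : V) (ρ : V → ℝ) (f : (V → ℤ) → ℝ) : ℝ :=
  ∑' h : A0 xl xr, wm s t J ρ h * f h

omit [DecidableEq V] in
lemma ZA_nonneg {J : E → ℝ} (hJ : ∀ e, 0 ≤ J e) (xl xr : V) (ρ : V → ℝ)
    {f : (V → ℤ) → ℝ} (f0 : ∀ h, 0 ≤ f h) : 0 ≤ ZA s t J xl xr ρ f :=
  tsum_nonneg fun h => mul_nonneg (wm_nonneg hJ ρ h) (f0 _)

lemma ZA_one_pos (hc : Conn s t) {J : E → ℝ} (hJ : ∀ e, 0 ≤ J e) (xl xr : V) (ρ : V → ℝ) :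
    0 < ZA s t J xl xr ρ fun _ => 1 := by
  unfold ZA
  simp only [mul_one]
  refine (summable_A0 hc hJ xl xr ρ).tsum_pos (fun h => wm_nonneg hJ ρ h)
    (⟨0, rfl, rfl⟩ : A0 xl xr) ?_
  exact mul_pos (W0_pos hJ) (Real.exp_pos _)

open Classical in
omit [DecidableEq V] in
lemma ZA_eq (J : E → ℝ) (xl xr : V) (ρ : V → ℝ) (f : (V → ℤ) → ℝ) :
    ZA s t J xl xr ρ f = ∑' h : V → ℤ, if h xl = 0 ∧ h xr = 0 then wm s t J ρ h * f h else 0 :=
  tsum_A0 xl xr fun h => wm s t J ρ h * f h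

omit [DecidableEq V] in
lemma ZA_one (J : E → ℝ) (xl xr : V) (ρ : V → ℝ) :
    ZA s t J xl xr ρ (fun _ => 1) = Zt s t J xl xr ρ 0 0 := by
  classical
  rw [ZA_eq]
  unfold Zt wm
  refine tsum_congr fun h => ?_
  by_cases c : h xl = 0 ∧ h xr = 0
  · rw [if_pos c, if_pos c, mul_one]
  · rw [if_neg c, if_neg c]

/-- tilting to the right increases the mean of an increasing function -/
lemma ZA_mono (hc : Conn s t) {J : E → ℝ} (hJ : ∀ e, 0 ≤ J e) (xl xr : V) {ρ ρ' : V → ℝ}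
    (hρ : ∀ v, ρ v ≤ ρ' v) {f : (V → ℤ) → ℝ} (f0 : ∀ h, 0 ≤ f h) (f1 : ∀ h, f h ≤ 1)
    (hf : Monotone f) :
    ZA s t J xl xr ρ f / ZA s t J xl xr ρ (fun _ => 1) ≤
      ZA s t J xl xr ρ' f / ZA s t J xl xr ρ' (fun _ => 1) := by
  rw [div_le_div_iff₀ (ZA_one_pos hc hJ xl xr ρ) (ZA_one_pos hc hJ xl xr ρ')]
  have h1 := holley_on (f := f) (setLe_A0 xl xr) (wm_nonneg hJ ρ) (wm_nonneg hJ ρ')
    (hol_wm (s := s) (t := t) hJ hρ) hf (summable_A0 hc hJ xl xr ρ) (summable_A0 hc hJ xl xr ρ')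
    (summable_A0_mul hc hJ xl xr ρ f0 f1) (summable_A0_mul hc hJ xl xr ρ' f0 f1)
  unfold ZA
  simp only [mul_one]
  rw [mul_comm (∑' h : A0 xl xr, wm s t J ρ' h * f h)]
  exact h1

open Classical in
/-- indicator of the complement of an event -/
noncomputable def gI (Bad : Finset V → Prop) (h : V → ℤ) : ℝ := if Bad (Nh h) then 0 else 1

omit [DecidableEq V] in
lemma gI_nonneg (Bad : Finset V → Prop) (h : V → ℤ) : 0 ≤ gI Bad h := by
  unfold gI; split_ifs <;> norm_num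

omit [DecidableEq V] in
lemma gI_le_one (Bad : Finset V → Prop) (h : V → ℤ) : gI Bad h ≤ 1 := by
  unfold gI; split_ifs <;> norm_num

omit [DecidableEq V] in
lemma gI_mono {Bad : Finset V → Prop} (hB : ∀ N N' : Finset V, N ⊆ N' → Bad N → Bad N') :
    Monotone (gI Bad) := by
  intro h h' hh
  unfold gI
  split_ifs with c1 c2
  · exact le_rfl
  · norm_num
  · exact absurd (hB _ _ (Nh_anti hh) (by assumption)) c1
  · exact le_rfl

/-- indicator of `{1 ≤ h f}` -/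
noncomputable def kI (f : V) (h : V → ℤ) : ℝ := if 1 ≤ h f then 1 else 0

omit [Fintype V] [DecidableEq V] in
lemma kI_nonneg (f : V) (h : V → ℤ) : 0 ≤ kI f h := by
  unfold kI; split_ifs <;> norm_num

omit [Fintype V] [DecidableEq V] in
lemma kI_le_one (f : V) (h : V → ℤ) : kI f h ≤ 1 := by
  unfold kI; split_ifs <;> norm_num

omit [Fintype V] [DecidableEq V] in
lemma kI_mono (f : V) : Monotone (kI f) := by
  intro h h' hh
  unfold kI
  split_ifs with c1 c2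
  · exact le_rfl
  · exact absurd (c1.trans (hh f)) c2
  · norm_num
  · exact le_rfl

open Classical in
lemma ZQ_pin (J : E → ℝ) (xl xr : V) (Q : Finset V) (σ : V → ℝ) :
    ZQ s t J xl xr Q σ = ∑' h : V → ℤ, if ∀ v ∈ ({xl, xr} : Finset V) ∪ Q, h v = 0 then
      W (grd s t) J h * Real.exp (∑ v, σ v * (h v : ℝ)) else 0 := by
  unfold ZQ
  refine tsum_congr fun h => ?_
  have hiff : ((h xl = 0 ∧ h xr = 0) ∧ ∀ v ∈ Q, h v = 0) ↔
      ∀ v ∈ ({xl, xr} : Finset V) ∪ Q, h v = 0 := by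
    constructor
    · rintro ⟨⟨h1, h2⟩, h3⟩ v hv
      rw [Finset.mem_union, Finset.mem_insert, Finset.mem_singleton] at hv
      rcases hv with (rfl | rfl) | hv
      · exact h1
      · exact h2
      · exact h3 v hv
    · intro h1
      exact ⟨⟨h1 xl (by simp), h1 xr (by simp)⟩, fun v hv => h1 v (by simp [hv])⟩
  by_cases c : (h xl = 0 ∧ h xr = 0) ∧ ∀ v ∈ Q, h v = 0
  · rw [if_pos c, if_pos (hiff.1 c)]
  · rw [if_neg c, if_neg fun c' => c (hiff.2 c')]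

lemma ZQ_pos (hc : Conn s t) {J : E → ℝ} (hJ : ∀ e, 0 ≤ J e) (xl xr : V) (Q : Finset V)
    (σ : V → ℝ) : 0 < ZQ s t J xl xr Q σ := by
  classical
  rw [ZQ_pin]
  have h1 := summable_if hc hJ xl xr σ
  have hs : Summable fun h : V → ℤ => if ∀ v ∈ ({xl, xr} : Finset V) ∪ Q, h v = 0 then
      W (grd s t) J h * Real.exp (∑ v, σ v * (h v : ℝ)) else 0 := by
    refine Summable.of_nonneg_of_le (fun h => ?_) (fun h => ?_) h1
    · split_ifs
      · exact mul_nonneg (W_nonneg hJ _) (Real.exp_pos _).le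
      · exact le_rfl
    · by_cases c : ∀ v ∈ ({xl, xr} : Finset V) ∪ Q, h v = 0
      · rw [if_pos c, if_pos fun v hv => c v (Finset.mem_union_left _ hv)]
        exact le_rfl
      · rw [if_neg c]
        split_ifs
        · exact wm_nonneg hJ _ _
        · exact le_rfl
  refine hs.tsum_pos (fun h => ?_) 0 ?_
  · split_ifs
    · exact mul_nonneg (W_nonneg hJ _) (Real.exp_pos _).le
    · exact le_rfl
  · rw [if_pos (show ∀ v ∈ ({xl, xr} : Finset V) ∪ Q, (0 : V → ℤ) v = 0 from fun v _ => rfl)]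
    exact mul_pos (W0_pos hJ) (Real.exp_pos _)

/-- the arm bound for one event -/
lemma arm_ratio (hc : Conn s t) {J : E → ℝ} (hJ : ∀ e, 0 ≤ J e) {xl xr : V} {ρ : V → ℝ}
    {Bad : Finset V → Prop} {A B Q : Finset V} {ρA ρB : V → ℝ}
    (h1 : ∀ v, 0 ≤ ρA v ∧ 0 ≤ ρB v ∧ ρA v + ρB v ≤ ρ v)
    (hA : ∀ v, v ∉ A → ρA v = 0) (hB : ∀ v, v ∉ B → ρB v = 0)
    (hmono : ∀ N N' : Finset V, N ⊆ N' → Bad N → Bad N')
    (hsep : ∀ N : Finset V, xl ∈ N → xr ∈ N → Bad N → ∀ x ∈ A, ∀ y ∈ B,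
      x ∉ N ∪ Q → ¬ Relation.ReflTransGen (adjS s t (N ∪ Q)) x y) :
    max 0 (1 - ZQ s t J xl xr Q (fun v => ρA v - ρB v) /
      ZQ s t J xl xr Q (fun v => ρA v + ρB v)) ≤
      ZA s t J xl xr ρ (gI Bad) / ZA s t J xl xr ρ (fun _ => 1) := by
  classical
  have hp := ZA_one_pos hc hJ xl xr ρ
  refine max_le (div_nonneg (ZA_nonneg hJ xl xr ρ (gI_nonneg Bad)) hp.le) ?_
  refine le_trans ?_ (ZA_mono hc hJ xl xr (ρ := fun v => ρA v + ρB v) (fun v => (h1 v).2.2)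
    (gI_nonneg Bad) (gI_le_one Bad) (gI_mono hmono))
  set σ : V → ℝ := fun v => ρA v + ρB v with hσ
  have hpσ := ZA_one_pos hc hJ xl xr σ
  have hq := ZQ_pos hc hJ xl xr Q σ
  have key := H619.arm_W0 hc hJ (P := {xl, xr}) (Q := Q) (A := A) (B := B) (F := Bad)
    ⟨xl, by simp⟩ (fun v => (h1 v).1) (fun v => (h1 v).2.1) hA hB hmono
    (fun T hP hT => hsep T (hP (by simp)) (hP (by simp)) hT)
  -- the probability of the event
  have e1 : (∑' h : V → ℤ, if (∀ v ∈ ({xl, xr} : Finset V), h v = 0) ∧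
      Bad (Finset.univ.filter fun v => h v ≤ 0) then
        W (grd s t) J h * Real.exp (∑ v, (ρA v + ρB v) * (h v : ℝ)) else 0) =
      ZA s t J xl xr σ (fun _ => 1) - ZA s t J xl xr σ (gI Bad) := by
    unfold ZA
    rw [← (summable_A0_mul hc hJ xl xr σ (f := fun _ => 1) (fun _ => zero_le_one)
      fun _ => le_rfl).tsum_sub (summable_A0_mul hc hJ xl xr σ (gI_nonneg Bad) (gI_le_one Bad)),
      tsum_A0 xl xr fun h => wm s t J σ h * 1 - wm s t J σ h * gI Bad h]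
    refine tsum_congr fun h => ?_
    have hiff : (∀ v ∈ ({xl, xr} : Finset V), h v = 0) ↔ (h xl = 0 ∧ h xr = 0) := by
      constructor
      · intro h2
        exact ⟨h2 xl (by simp), h2 xr (by simp)⟩
      · rintro ⟨h2, h3⟩ v hv
        rw [Finset.mem_insert, Finset.mem_singleton] at hv
        rcases hv with rfl | rfl
        · exact h2
        · exact h3
    by_cases c : h xl = 0 ∧ h xr = 0
    · rw [if_pos c]
      by_cases c2 : Bad (Nh h)
      · rw [if_pos ⟨hiff.2 c, c2⟩]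
        unfold gI
        rw [if_pos c2]
        simp only [mul_one, mul_zero, sub_zero]
        rfl
      · rw [if_neg fun c' => c2 c'.2]
        unfold gI
        rw [if_neg c2]
        simp
    · rw [if_neg c, if_neg fun c' => c (hiff.1 c'.1)]
  have e2 : (∑' h : V → ℤ, if ∀ v ∈ ({xl, xr} : Finset V), h v = 0 then
        W (grd s t) J h * Real.exp (∑ v, (ρA v + ρB v) * (h v : ℝ)) else 0) =
      ZA s t J xl xr σ (fun _ => 1) := by
    rw [ZA_eq]
    refine tsum_congr fun h => ?_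
    have hiff : (∀ v ∈ ({xl, xr} : Finset V), h v = 0) ↔ (h xl = 0 ∧ h xr = 0) := by
      constructor
      · intro h2
        exact ⟨h2 xl (by simp), h2 xr (by simp)⟩
      · rintro ⟨h2, h3⟩ v hv
        rw [Finset.mem_insert, Finset.mem_singleton] at hv
        rcases hv with rfl | rfl
        · exact h2
        · exact h3
    by_cases c : h xl = 0 ∧ h xr = 0
    · rw [if_pos c, if_pos (hiff.2 c), mul_one]
      rfl
    · rw [if_neg c, if_neg fun c' => c (hiff.1 c')]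
  have e3 := ZQ_pin (s := s) (t := t) J xl xr Q σ
  have e4 := ZQ_pin (s := s) (t := t) J xl xr Q fun v => ρA v - ρB v
  have key2 : (ZA s t J xl xr σ (fun _ => 1) - ZA s t J xl xr σ (gI Bad)) *
      ZQ s t J xl xr Q σ ≤ ZA s t J xl xr σ (fun _ => 1) *
        ZQ s t J xl xr Q (fun v => ρA v - ρB v) := by
    rw [e3, e4, ← e1, ← e2]
    exact key
  rw [sub_le_iff_le_add, ← sub_le_iff_le_add', le_div_iff₀ hq]
  have h5 : (1 - ZA s t J xl xr σ (gI Bad) / ZA s t J xl xr σ (fun _ => 1)) *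
      ZQ s t J xl xr Q σ =
      ((ZA s t J xl xr σ (fun _ => 1) - ZA s t J xl xr σ (gI Bad)) * ZQ s t J xl xr Q σ) /
        ZA s t J xl xr σ (fun _ => 1) := by
    field_simp
  rw [h5, div_le_iff₀ hpσ]
  linarith

/-- **the product inequality** from the inequality for the event `¬ (xl ↔ xr in {h ≤ 0})` -/
theorem mainG (hc : Conn s t) {J : E → ℝ} (hJ : ∀ e, 0 ≤ J e) {xl xr : V} {ρ : V → ℝ}
    (hρ : ∀ v, 0 ≤ ρ v) {ι : Type} (I : Finset ι) (Bad : ι → Finset V → Prop)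
    (A B Q : ι → Finset V) (ρA ρB : ι → V → ℝ) (F : Finset V)
    (h1 : ∀ i ∈ I, ∀ v, 0 ≤ ρA i v ∧ 0 ≤ ρB i v ∧ ρA i v + ρB i v ≤ ρ v)
    (hA : ∀ i ∈ I, ∀ v, v ∉ A i → ρA i v = 0) (hB : ∀ i ∈ I, ∀ v, v ∉ B i → ρB i v = 0)
    (hmono : ∀ i ∈ I, ∀ N N' : Finset V, N ⊆ N' → Bad i N → Bad i N')
    (hsep : ∀ i ∈ I, ∀ N : Finset V, xl ∈ N → xr ∈ N → Bad i N → ∀ x ∈ A i, ∀ y ∈ B i,
      x ∉ N ∪ Q i → ¬ Relation.ReflTransGen (adjS s t (N ∪ Q i)) x y)
    (hcov : ∀ N : Finset V, xl ∈ N → xr ∈ N → Relation.ReflTransGen (adjS s t Nᶜ) xl xr →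
      (∃ i ∈ I, Bad i N) ∨ ∃ f ∈ F, f ∈ N)
    (hamp : ZA s t J xl xr ρ (gI fun N => Relation.ReflTransGen (adjS s t Nᶜ) xl xr) *
      Zt s t J xl xr 0 0 0 ≤ Zt s t J xl xr 0 0 1 * Zt s t J xl xr ρ 1 0) :
    Zt s t J xl xr 0 0 0 * Zt s t J xl xr ρ 0 0 *
        (∏ i ∈ I, max 0 (1 - ZQ s t J xl xr (Q i) (fun v => ρA i v - ρB i v) /
          ZQ s t J xl xr (Q i) (fun v => ρA i v + ρB i v))) *
        (∏ f ∈ F, Z1 s t J xl xr f / Zt s t J xl xr 0 0 0) ≤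
      Zt s t J xl xr 0 0 1 * Zt s t J xl xr ρ 1 0 := by
  classical
  have hp := ZA_one_pos hc hJ xl xr ρ
  have hp0 := ZA_one_pos hc hJ xl xr (0 : V → ℝ)
  -- the factors
  have f1 : ∏ i ∈ I, max 0 (1 - ZQ s t J xl xr (Q i) (fun v => ρA i v - ρB i v) /
      ZQ s t J xl xr (Q i) (fun v => ρA i v + ρB i v)) ≤
      ∏ i ∈ I, (ZA s t J xl xr ρ (gI (Bad i)) / ZA s t J xl xr ρ (fun _ => 1)) :=
    Finset.prod_le_prod (fun i _ => le_max_left _ _) fun i hi =>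
      arm_ratio hc hJ (h1 i hi) (hA i hi) (hB i hi) (hmono i hi) (hsep i hi)
  have f2 : ∏ f ∈ F, Z1 s t J xl xr f / Zt s t J xl xr 0 0 0 ≤
      ∏ f ∈ F, (ZA s t J xl xr ρ (kI f) / ZA s t J xl xr ρ (fun _ => 1)) := by
    have e : ∀ f, Z1 s t J xl xr f / Zt s t J xl xr 0 0 0 =
        ZA s t J xl xr 0 (kI f) / ZA s t J xl xr 0 (fun _ => 1) := by
      intro f
      rw [ZA_one]
      congr 1
      rw [ZA_eq]
      unfold Z1 wm kI
      refine tsum_congr fun h => ?_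
      by_cases c : h xl = 0 ∧ h xr = 0 <;> by_cases c2 : 1 ≤ h f <;> simp [c, c2]
    refine Finset.prod_le_prod (fun f _ => ?_) fun f _ => ?_
    · rw [e]
      exact div_nonneg (ZA_nonneg hJ xl xr 0 (kI_nonneg f)) hp0.le
    · rw [e]
      exact ZA_mono hc hJ xl xr (ρ := 0) hρ (kI_nonneg f) (kI_le_one f) (kI_mono f)
  -- FKG
  have hFK := fkg_prod_on (setLe_A0 xl xr) (μ := wm s t J ρ) (wm_nonneg hJ ρ)
    (summable_A0 hc hJ xl xr ρ) (by
      have h := hp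
      unfold ZA at h
      simpa only [mul_one] using h) (hol_wm (s := s) (t := t) hJ fun _ => le_rfl)
    (I.disjSum F) (f := Sum.elim (fun i => gI (Bad i)) kI) (by
      rintro (i | f) hx
      · exact gI_mono (hmono i (Finset.inl_mem_disjSum.1 hx))
      · exact kI_mono f) (by
      rintro (i | f) _ h
      · exact gI_nonneg _ _
      · exact kI_nonneg _ _) (by
      rintro (i | f) _ h
      · exact gI_le_one _ _
      · exact kI_le_one _ _)
  rw [Finset.prod_disjSum] at hFK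
  simp only [Finset.prod_disjSum, Sum.elim_inl, Sum.elim_inr] at hFK
  have e0 : ZA s t J xl xr ρ (fun _ => 1) = ∑' h : A0 xl xr, wm s t J ρ h := by
    unfold ZA
    simp only [mul_one]
  have hle : (∑' h : A0 xl xr, wm s t J ρ h * ((∏ i ∈ I, gI (Bad i) h) * ∏ f ∈ F, kI f h)) ≤
      ZA s t J xl xr ρ (gI fun N => Relation.ReflTransGen (adjS s t Nᶜ) xl xr) := by
    have b0 : ∀ h : V → ℤ, 0 ≤ (∏ i ∈ I, gI (Bad i) h) * ∏ f ∈ F, kI f h := fun h =>
      mul_nonneg (Finset.prod_nonneg fun i _ => gI_nonneg _ _)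
        (Finset.prod_nonneg fun f _ => kI_nonneg _ _)
    have b1 : ∀ h : V → ℤ, (∏ i ∈ I, gI (Bad i) h) * ∏ f ∈ F, kI f h ≤ 1 := fun h =>
      mul_le_one₀ (Finset.prod_le_one (fun i _ => gI_nonneg _ _) fun i _ => gI_le_one _ _)
        (Finset.prod_nonneg fun f _ => kI_nonneg _ _)
        (Finset.prod_le_one (fun f _ => kI_nonneg _ _) fun f _ => kI_le_one _ _)
    refine (summable_A0_mul hc hJ xl xr ρ b0 b1).tsum_le_tsum (fun h => ?_)
      (summable_A0_mul hc hJ xl xr ρ (gI_nonneg _) (gI_le_one _))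
    refine mul_le_mul_of_nonneg_left ?_ (wm_nonneg hJ ρ _)
    by_cases c : Relation.ReflTransGen (adjS s t (Nh h.1)ᶜ) xl xr
    · have h0 : (∏ i ∈ I, gI (Bad i) h.1) * ∏ f ∈ F, kI f h.1 = 0 := by
        rcases hcov (Nh h.1) (mem_Nh.2 h.2.1.le) (mem_Nh.2 h.2.2.le) c with ⟨i, hi, hb⟩ |
          ⟨f, hf, hfN⟩
        · rw [Finset.prod_eq_zero hi, zero_mul]
          unfold gI
          rw [if_pos hb]
        · rw [Finset.prod_eq_zero hf, mul_zero]
          unfold kI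
          rw [if_neg]
          have := mem_Nh.1 hfN
          omega
      rw [h0]
      exact gI_nonneg _ _
    · have h2 : gI (fun N => Relation.ReflTransGen (adjS s t Nᶜ) xl xr) h.1 = 1 := by
        unfold gI
        rw [if_neg c]
      rw [h2]
      exact b1 _
  have hz0 : 0 < Zt s t J xl xr 0 0 0 := by rw [← ZA_one]; exact hp0
  have hzρ : 0 < Zt s t J xl xr ρ 0 0 := by rw [← ZA_one]; exact hp
  have f3 : (∏ i ∈ I, (ZA s t J xl xr ρ (gI (Bad i)) / ZA s t J xl xr ρ (fun _ => 1))) *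
      (∏ f ∈ F, (ZA s t J xl xr ρ (kI f) / ZA s t J xl xr ρ (fun _ => 1))) ≤
      ZA s t J xl xr ρ (gI fun N => Relation.ReflTransGen (adjS s t Nᶜ) xl xr) /
        Zt s t J xl xr ρ 0 0 := by
    rw [← ZA_one, e0]
    refine le_trans hFK ?_
    have hp' := hp
    rw [e0] at hp'
    exact div_le_div_of_nonneg_right hle hp'.le
  have g1 : 0 ≤ ∏ f ∈ F, Z1 s t J xl xr f / Zt s t J xl xr 0 0 0 := by
    refine Finset.prod_nonneg fun f _ => div_nonneg (tsum_nonneg fun h => ?_) hz0.le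
    split_ifs
    · exact W_nonneg hJ _
    · exact le_rfl
  have g2 : 0 ≤ ∏ i ∈ I, (ZA s t J xl xr ρ (gI (Bad i)) / ZA s t J xl xr ρ (fun _ => 1)) :=
    Finset.prod_nonneg fun i _ => div_nonneg (ZA_nonneg hJ xl xr ρ (gI_nonneg _)) hp.le
  have f4 := (mul_le_mul f1 f2 g1 g2).trans f3
  rw [le_div_iff₀ hzρ] at f4
  have f5 := mul_le_mul_of_nonneg_right f4 hz0.le
  refine le_trans (le_of_eq ?_) (f5.trans hamp)
  ring

end graph

end Vale.Agent.P159.T1.D.H802
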